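import Vale.Agent.Lib.P134.Translates

/-- Let `F : ℝ → ℝ` be `C²` with `F' > 0` and `|F| ≤ 1`, and let `φ : ℝ^m → ℝ` be `C³`. If
`u(x', xₙ) = F(xₙ - φ(x'))`, a function all of whose level sets are vertical translates of one graph,
solves `Δu = u³ - u` on `ℝ^(m+1)`, then `φ` is affine and `u` is one-dimensional:
`u(x) = h(e · x)` for a unit vector `e`. -/
theorem Vale.Agent.Results.P134.A_translates.result {m : ℕ}
    (F : ℝ → ℝ) (φ : (Fin m → ℝ) → ℝ) (hF : ContDiff ℝ 2 F) (hφ : ContDiff ℝ 3 φ)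
    (hpos : ∀ s, 0 < deriv F s) (hb : ∀ s, |F s| ≤ 1)
    (hu : ∀ x, Vale.Agent.Lib.P134.laplacian (Vale.Agent.Lib.P134.translateGraph F φ) x =
      (Vale.Agent.Lib.P134.translateGraph F φ x) ^ 3 - Vale.Agent.Lib.P134.translateGraph F φ x) :
    (∃ (β : Fin m → ℝ) (c : ℝ), ∀ x', φ x' = ∑ j, β j * x' j + c) ∧
      ∃ (e : Fin (m + 1) → ℝ) (h : ℝ → ℝ), ∑ i, (e i) ^ 2 = 1 ∧
        ∀ x, Vale.Agent.Lib.P134.translateGraph F φ x = h (∑ i, e i * x i) :=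
  Vale.Agent.Lib.P134.translates_rigidity hF hφ hpos hb hu
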